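import Mathlib
import Vale.Agent.Lib.H16.IT.Core

/-!
The finite rank argument, with a bound.
-/

namespace Vale.Agent.Lib.H16.ITD

open Vale.Agent.Lib.H16.IT

universe u v

/-- Two consecutive redundant vectors occur early. -/
lemma exists_stable_le {W : Type} [Fintype W] (c : ℕ → (W → ℚ)) :
    ∃ t ≤ 2 * Fintype.card W, c (t + 1) ∈ Submodule.span ℚ (c '' {r | r < t}) := by
  by_contra hno
  push Not at hno
  have hrank : ∀ k, k ≤ Fintype.card W + 1 →
      k ≤ Module.finrank ℚ (Submodule.span ℚ (c '' {r | r < 2 * k})) := by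
    intro k
    induction k with
    | zero => intro _; exact Nat.zero_le _
    | succ k ih =>
      intro hk
      have h1 := ih (by omega)
      have h2 : Submodule.span ℚ (c '' {r | r < 2 * k}) <
          Submodule.span ℚ (c '' {r | r < 2 * (k + 1)}) := by
        refine lt_of_le_of_ne (Submodule.span_mono (Set.image_mono (fun r hr => ?_))) ?_
        · have hr' : r < 2 * k := hr
          change r < 2 * (k + 1)
          omega
        · intro heq
          apply hno (2 * k) (by omega)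
          rw [heq]
          exact Submodule.subset_span ⟨2 * k + 1, by
            change 2 * k + 1 < 2 * (k + 1)
            omega, rfl⟩
      have h3 := Submodule.finrank_lt_finrank_of_lt h2
      omega
  have h1 := hrank (Fintype.card W + 1) le_rfl
  have h2 := Submodule.finrank_le (Submodule.span ℚ (c '' {r | r < 2 * (Fintype.card W + 1)}))
  rw [Module.finrank_fintype_fun_eq_card] at h2
  omega

section

variable {K : Type v} [CommRing K] [IsArtinianRing K] {R : Type u} [Ring R] [Algebra K R]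
  [Module.Finite K R]

theorem core {W : Type} [Fintype W] (X : W → Type u)
    [∀ w, AddCommGroup (X w)] [∀ w, Module R (X w)] [∀ w, Module K (X w)]
    [∀ w, IsScalarTower K R (X w)]
    (Y : ℕ → Type u) [∀ s, AddCommGroup (Y s)] [∀ s, Module R (Y s)] [∀ s, Module K (Y s)]
    [∀ s, IsScalarTower K R (Y s)] [∀ s, Module.Finite R (Y s)]
    (A : ℕ → Type u) [∀ s, AddCommGroup (A s)] [∀ s, Module R (A s)] [∀ s, Module K (A s)]
    [∀ s, IsScalarTower K R (A s)] [∀ s, Module.Finite R (A s)]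
    (B : ℕ → Type u) [∀ s, AddCommGroup (B s)] [∀ s, Module R (B s)] [∀ s, Module K (B s)]
    [∀ s, IsScalarTower K R (B s)]
    (Q : ℕ → Type u) [∀ s, AddCommGroup (Q s)] [∀ s, Module R (Q s)]
    [∀ s, Module.Finite R (Q s)] [∀ s, Module.Projective R (Q s)]
    (N : ℕ → Type u) [∀ s, AddCommGroup (N s)] [∀ s, Module R (N s)]
    [∀ s, Module.Finite R (N s)]
    (P : ℕ → Type u) [∀ s, AddCommGroup (P s)] [∀ s, Module R (P s)]
    [∀ s, Module.Finite R (P s)] [∀ s, Module.Projective R (P s)]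
    (Y' : ℕ → Type u) [∀ s, AddCommGroup (Y' s)] [∀ s, Module R (Y' s)]
    [∀ s, Module.Finite R (Y' s)]
    (EQ : ∀ s, SES R (N s) (Q s) (Y s)) (EP : ∀ s, SES R (Y s) (P s) (Y' s))
    (EA : ∀ s, SES R (B s) (A s) (Y s))
    (c : ℕ → W → ℚ)
    (hc : ∀ (t : ℕ) (Z : Type u) [AddCommGroup Z] [Module R Z] [Module.Finite R Z],
      (hl K R Z (A t) : ℚ) - hl K R Z (B t) = ∑ w, c t w * hl K R Z (X w))
    (H1 : ∀ s t, t ≤ s → s ≤ 2 * Fintype.card W + 1 →
      ∀ h : N s →ₗ[R] Y t, ∃ h' : Q s →ₗ[R] Y t, h' ∘ₗ (EQ s).f = h)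
    (H2 : ∀ s t, t < s → s ≤ 2 * Fintype.card W + 1 →
      ∀ h : Y s →ₗ[R] Y t, ∃ h' : P s →ₗ[R] Y t, h' ∘ₗ (EP s).f = h)
    (H3 : ∀ s t, t + 2 ≤ s → s ≤ 2 * Fintype.card W + 1 →
      ∀ h : Y' s →ₗ[R] Y t, ∃ h' : Y' s →ₗ[R] A t, (EA t).g ∘ₗ h' = h) :
    ∃ s ≤ 2 * Fintype.card W + 1, Module.Projective R (Y s) := by
  classical
  -- the functionals
  let Φ : ℕ → ((W → ℚ) →ₗ[ℚ] ℚ) := fun s => ∑ w,
    ((hl K R (Q s) (X w) : ℚ) - hl K R (Y s) (X w) - hl K R (N s) (X w)) • LinearMap.proj w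
  let Ψ : ℕ → ((W → ℚ) →ₗ[ℚ] ℚ) := fun s => ∑ w,
    ((hl K R (P s) (X w) : ℚ) - hl K R (Y' s) (X w) - hl K R (Y s) (X w)) • LinearMap.proj w
  have hΦ : ∀ s t, Φ s (c t) = ((hl K R (Q s) (A t) : ℚ) - hl K R (Q s) (B t))
      - ((hl K R (Y s) (A t) : ℚ) - hl K R (Y s) (B t))
      - ((hl K R (N s) (A t) : ℚ) - hl K R (N s) (B t)) := by
    intro s t
    rw [hc t (Q s), hc t (Y s), hc t (N s), ← Finset.sum_sub_distrib, ← Finset.sum_sub_distrib]
    simp only [Φ, LinearMap.sum_apply, LinearMap.smul_apply, LinearMap.proj_apply, smul_eq_mul]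
    exact Finset.sum_congr rfl (fun w _ => by ring)
  have hΨ : ∀ s t, Ψ s (c t) = ((hl K R (P s) (A t) : ℚ) - hl K R (P s) (B t))
      - ((hl K R (Y' s) (A t) : ℚ) - hl K R (Y' s) (B t))
      - ((hl K R (Y s) (A t) : ℚ) - hl K R (Y s) (B t)) := by
    intro s t
    rw [hc t (P s), hc t (Y' s), hc t (Y s), ← Finset.sum_sub_distrib, ← Finset.sum_sub_distrib]
    simp only [Ψ, LinearMap.sum_apply, LinearMap.smul_apply, LinearMap.proj_apply, smul_eq_mul]
    exact Finset.sum_congr rfl (fun w _ => by ring)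
  -- exactness along projective modules
  have eQ : ∀ s t, hl K R (Q s) (A t) = hl K R (Q s) (B t) + hl K R (Q s) (Y t) := fun s t =>
    (EA t).hl_cov (fun h => Module.projective_lifting_property (EA t).g h (EA t).surj)
  have eP : ∀ s t, hl K R (P s) (A t) = hl K R (P s) (B t) + hl K R (P s) (Y t) := fun s t =>
    (EA t).hl_cov (fun h => Module.projective_lifting_property (EA t).g h (EA t).surj)
  have eN : ∀ s t, t ≤ s → s ≤ 2 * Fintype.card W + 1 →
      hl K R (N s) (A t) = hl K R (N s) (B t) + hl K R (N s) (Y t) :=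
    fun s t hst hs => (EA t).hl_cov (fun h => lift_of_ext (EA t) (EQ s).f h (H1 s t hst hs h))
  have eY : ∀ s t, t < s → s ≤ 2 * Fintype.card W + 1 →
      hl K R (Y s) (A t) = hl K R (Y s) (B t) + hl K R (Y s) (Y t) :=
    fun s t hst hs => (EA t).hl_cov (fun h => lift_of_ext (EA t) (EP s).f h (H2 s t hst hs h))
  have eY' : ∀ s t, t + 2 ≤ s → s ≤ 2 * Fintype.card W + 1 →
      hl K R (Y' s) (A t) = hl K R (Y' s) (B t) + hl K R (Y' s) (Y t) :=
    fun s t hst hs => (EA t).hl_cov (H3 s t hst hs)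
  have cQ : ∀ s t, t ≤ s → s ≤ 2 * Fintype.card W + 1 →
      hl K R (Q s) (Y t) = hl K R (Y s) (Y t) + hl K R (N s) (Y t) :=
    fun s t hst hs => (EQ s).hl_contra (H1 s t hst hs)
  have cP : ∀ s t, t < s → s ≤ 2 * Fintype.card W + 1 →
      hl K R (P s) (Y t) = hl K R (Y' s) (Y t) + hl K R (Y s) (Y t) :=
    fun s t hst hs => (EP s).hl_contra (H2 s t hst hs)
  have hΦ0 : ∀ s t, t < s → s ≤ 2 * Fintype.card W + 1 → Φ s (c t) = 0 := by
    intro s t hst hs
    rw [hΦ, eQ s t, eN s t hst.le hs, eY s t hst hs, cQ s t hst.le hs]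
    push_cast
    ring
  have hΨ0 : ∀ s t, t + 2 ≤ s → s ≤ 2 * Fintype.card W + 1 → Ψ s (c t) = 0 := by
    intro s t hst hs
    rw [hΨ, eP s t, eY s t (by omega) hs, eY' s t hst hs, cP s t (by omega) hs]
    push_cast
    ring
  obtain ⟨t, htle, ht⟩ := exists_stable_le c
  have k1 : Φ (t + 1) (c (t + 1)) = 0 := by
    have : Submodule.span ℚ (c '' {r | r < t}) ≤ LinearMap.ker (Φ (t + 1)) := by
      rw [Submodule.span_le]
      rintro _ ⟨r, hr, rfl⟩
      have hr' : r < t := hr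
      exact hΦ0 (t + 1) r (by omega) (by omega)
    exact this ht
  have k2 : Ψ (t + 1) (c (t + 1)) = 0 := by
    have : Submodule.span ℚ (c '' {r | r < t}) ≤ LinearMap.ker (Ψ (t + 1)) := by
      rw [Submodule.span_le]
      rintro _ ⟨r, hr, rfl⟩
      have hr' : r < t := hr
      exact hΨ0 (t + 1) r (by omega) (by omega)
    exact this ht
  have hs : t + 1 ≤ 2 * Fintype.card W + 1 := by omega
  generalize t + 1 = s at k1 k2 hs
  refine ⟨s, hs, ?_⟩
  -- the identity of `Y s` lifts to `A s`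
  have l1 : hl K R (Y s) (B s) + hl K R (Y s) (Y s) ≤ hl K R (Y s) (A s) := by
    rw [hΦ, eQ s s, eN s s le_rfl hs, cQ s s le_rfl hs] at k1
    push_cast at k1
    have : (hl K R (Y s) (B s) : ℚ) + hl K R (Y s) (Y s) = hl K R (Y s) (A s) := by
      linarith
    exact_mod_cast this.le
  obtain ⟨σ, hσ⟩ := (EA s).lift_of_hl l1 LinearMap.id
  have eall : ∀ (Z : Type u) [AddCommGroup Z] [Module R Z] [Module.Finite R Z],
      hl K R Z (A s) = hl K R Z (B s) + hl K R Z (Y s) := by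
    intro Z _ _ _
    refine (EA s).hl_cov (fun h => ⟨σ ∘ₗ h, ?_⟩)
    rw [← LinearMap.comp_assoc, hσ, LinearMap.id_comp]
  have l2 : hl K R (Y' s) (Y s) + hl K R (Y s) (Y s) ≤ hl K R (P s) (Y s) := by
    rw [hΨ, eall (P s), eall (Y' s), eall (Y s)] at k2
    push_cast at k2
    have : (hl K R (Y' s) (Y s) : ℚ) + hl K R (Y s) (Y s) = hl K R (P s) (Y s) := by
      linarith
    exact_mod_cast this.le
  obtain ⟨τ, hτ⟩ := (EP s).ext_of_hl l2 LinearMap.id
  exact Module.Projective.of_split (EP s).f τ hτ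

end

end Vale.Agent.Lib.H16.ITD
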