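import Mathlib

/-!
# Definitions: syzygies, `add V`, Igusa-Todorov algebras, the Auslander-Reiten condition
-/

namespace Vale.Agent.Lib.H16.ITD

open CategoryTheory Abelian

universe u

/-- `IsSyzygy R M n Y`: there is an exact sequence
`0 → Y → P_{n-1} → ... → P_0 → M → 0` with all `P_i` finitely generated projective modules;
that is, `Y` is an `n`-th syzygy of `M`. -/
inductive IsSyzygy (R : Type u) [Ring R] (M : ModuleCat.{u} R) : ℕ → ModuleCat.{u} R → Prop
  | zero : IsSyzygy R M 0 M
  | succ {n : ℕ} {Y P Y' : ModuleCat.{u} R} (hY : IsSyzygy R M n Y)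
      (hproj : Module.Projective R P) (hfin : Module.Finite R P)
      (i : Y' →ₗ[R] P) (p : P →ₗ[R] Y) (hi : Function.Injective i)
      (hp : Function.Surjective p) (hex : Function.Exact i p) : IsSyzygy R M (n + 1) Y'

/-- `InAdd R V L`: the module `L` belongs to `add V`, that is, it is isomorphic to a direct summand
of a finite direct sum of copies of `V`. -/
def InAdd (R : Type u) [Ring R] (V L : ModuleCat.{u} R) : Prop :=
  ∃ (r : ℕ) (i : L →ₗ[R] (Fin r → V)) (p : (Fin r → V) →ₗ[R] L), p ∘ₗ i = LinearMap.id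

/-- `HasPres R V Y`: there is a short exact sequence `0 → B → A → Y → 0` with `A` and `B` in
`add V`. -/
def HasPres (R : Type u) [Ring R] (V Y : ModuleCat.{u} R) : Prop :=
  ∃ (A B : ModuleCat.{u} R) (i : B →ₗ[R] A) (p : A →ₗ[R] Y), InAdd R V A ∧ InAdd R V B ∧
    Function.Injective i ∧ Function.Exact i p ∧ Function.Surjective p

/-- `R` is an Igusa-Todorov algebra: for some `n` and some finitely generated module `V`, every
finitely generated module `M` has an `n`-th syzygy `Y` with a short exact sequence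
`0 → V₁ → V₀ → Y → 0`, where `V₀` and `V₁` belong to `add V`. -/
def IgusaTodorov (R : Type u) [Ring R] : Prop :=
  ∃ (n : ℕ) (V : ModuleCat.{u} R), Module.Finite R V ∧
    ∀ M : ModuleCat.{u} R, Module.Finite R M → ∃ Y, IsSyzygy R M n Y ∧ HasPres R V Y

/-- `R / I` has finite representation type: for some finitely generated module `V`, all finitely
generated modules killed by `I` belong to `add V`. -/
def FinRepQuot (R : Type u) [Ring R] (I : Ideal R) : Prop :=
  ∃ V : ModuleCat.{u} R, Module.Finite R V ∧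
    ∀ L : ModuleCat.{u} R, Module.Finite R L → (∀ a ∈ I, ∀ x : L, a • x = 0) → InAdd R V L

/-- The Auslander-Reiten condition (AR): `Ext^i(M, M) = 0` and `Ext^i(M, R) = 0` for all
`i ≥ 1`. -/
def AR (R : Type u) [Ring R] (M : ModuleCat.{u} R) : Prop :=
  ∀ i : ℕ, 1 ≤ i → Subsingleton (Ext M M i) ∧ Subsingleton (Ext M (ModuleCat.of R R) i)

/-- The Auslander-Reiten condition in the degrees `1 ≤ i ≤ N` only. -/
def ARUpTo (R : Type u) [Ring R] (N : ℕ) (M : ModuleCat.{u} R) : Prop :=
  ∀ i : ℕ, 1 ≤ i → i ≤ N → Subsingleton (Ext M M i) ∧ Subsingleton (Ext M (ModuleCat.of R R) i)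

end Vale.Agent.Lib.H16.ITD
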