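import Mathlib
import Vale.Agent.Lib.H16.ITD.Defs
import Vale.Agent.Lib.H16.IT.KS

/-!
Syzygies and vanishing of `Ext` in a range of degrees.
-/

namespace Vale.Agent.Lib.H16.ITD

open CategoryTheory Abelian Vale.Agent.Lib.H16.IT

universe u v

variable {R : Type u} [Ring R] {M : ModuleCat.{u} R}

lemma IsSyzygy.finite [IsNoetherianRing R] [Module.Finite R M] {n : ℕ} {Y : ModuleCat.{u} R}
    (h : IsSyzygy R M n Y) : Module.Finite R Y := by
  induction h with
  | zero => infer_instance
  | succ hY hproj hfin i p hi hp hex ih =>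
    exact Module.Finite.of_injective i hi

lemma IsSyzygy.trans {n m : ℕ} {L Y : ModuleCat.{u} R} (h : IsSyzygy R M n L)
    (h' : IsSyzygy R L m Y) : IsSyzygy R M (n + m) Y := by
  induction h' with
  | zero => exact h
  | succ hY hproj hfin i p hi hp hex ih =>
    exact IsSyzygy.succ ih hproj hfin i p hi hp hex

lemma exists_syzygy [IsNoetherianRing R] (M : ModuleCat.{u} R) [Module.Finite R M] (n : ℕ) :
    ∃ Y, IsSyzygy R M n Y := by
  induction n with
  | zero => exact ⟨M, IsSyzygy.zero⟩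
  | succ n ih =>
    obtain ⟨Y, hY⟩ := ih
    have := hY.finite
    obtain ⟨P, N, h1, h2, h3, ⟨E⟩⟩ := exists_presentation Y
    exact ⟨N, IsSyzygy.succ hY h1 h2 E.f E.g E.inj E.surj E.exact⟩

lemma IsSyzygy.pred {n : ℕ} {Y : ModuleCat.{u} R} (h : IsSyzygy R M (n + 1) Y) :
    ∃ (P Y' : ModuleCat.{u} R), IsSyzygy R M n Y' ∧ Module.Projective R P ∧
      Module.Finite R P ∧ Nonempty (SES R Y P Y') := by
  cases h with
  | succ hY hproj hfin i p hi hp hex => exact ⟨_, _, hY, hproj, hfin, ⟨⟨i, p, hi, hp, hex⟩⟩⟩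

/-- Vanishing of `Ext^n(Y, Z)` for a syzygy `Y`. -/
lemma IsSyzygy.ez_left {m : ℕ} {Y : ModuleCat.{u} R} (h : IsSyzygy R M m Y)
    {Z : ModuleCat.{u} R} : ∀ n, 1 ≤ n → EZ R M Z (n + m) → EZ R Y Z n := by
  induction h with
  | zero =>
    intro n _ h
    exact h
  | succ hY hproj hfin i p hi hp hex ih =>
    rename_i m' Y P Y'
    intro n hn h
    have h1 := ih (n + 1) (by omega) (by
      have : n + (m' + 1) = n + 1 + m' := by omega
      rwa [this] at h)
    exact (SES.mk i p hi hp hex).shift_contra hn h1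

/-- Vanishing of `Ext^n(M, Y)` for a syzygy `Y` of `M`. -/
lemma IsSyzygy.ez_right {a b : ℕ} (hM : ∀ i, 1 ≤ i → i ≤ a → EZ R M M i)
    (hR : ∀ i, 1 ≤ i → i ≤ b → EZ R M R i) {m : ℕ} {Y : ModuleCat.{u} R}
    (h : IsSyzygy R M m Y) : ∀ n, m + 1 ≤ n → n ≤ m + a → n ≤ b → EZ R M Y n := by
  induction h with
  | zero =>
    intro n hn hna hnb
    exact hM n (by omega) (by omega)
  | succ hY hproj hfin i p hi hp hex ih =>
    rename_i m' Y P Y'
    intro n hn hna hnb
    obtain ⟨n, rfl⟩ : ∃ k, n = k + 1 := ⟨n - 1, by omega⟩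
    exact (SES.mk i p hi hp hex).shift_co (ih n (by omega) (by omega) (by omega))
      (EZ.of_projective (hR (n + 1) (by omega) (by omega)))

/-- A module with vanishing `Ext^i(M, R)` and a projective syzygy is projective. -/
lemma IsSyzygy.projective [IsNoetherianRing R] [Module.Finite R M] {b : ℕ}
    (hR : ∀ i, 1 ≤ i → i ≤ b → EZ R M R i)
    {m : ℕ} {Y : ModuleCat.{u} R} (h : IsSyzygy R M m Y) (hm : m ≤ b)
    (hY : Module.Projective R Y) : Module.Projective R M := by
  induction h with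
  | zero => exact hY
  | succ hS hproj hfin i p hi hp hex ih =>
    rename_i m' Y P Y'
    have hfin' : Module.Finite R Y' := Module.Finite.of_injective i hi
    have h1 : EZ R M Y' (1 + m') := EZ.of_projective (hR (1 + m') (by omega) (by omega))
    have h2 : EZ R Y Y' 1 := hS.ez_left 1 le_rfl h1
    obtain ⟨r, hr⟩ := (SES.mk i p hi hp hex).extend h2 LinearMap.id
    exact ih (by omega) ((SES.mk i p hi hp hex).projective_of_retract r hr)

end Vale.Agent.Lib.H16.ITD
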