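import Mathlib
import Vale.Agent.Lib.H16.ITD.Syz
import Vale.Agent.Lib.H16.ITD.Core

/-!
The Auslander-Reiten conjecture for Igusa-Todorov algebras, with a uniform bound.
-/

namespace Vale.Agent.Lib.H16.ITD

open CategoryTheory Abelian Vale.Agent.Lib.H16.IT

universe u v

section

variable (K : Type v) [CommRing K] [IsArtinianRing K] {R : Type u} [Ring R] [Algebra K R]
  [Module.Finite K R]

include K in
theorem main_family {W : Type} [Fintype W] (X : W → ModuleCat.{u} R)
    (hX : ∀ w, Module.Finite R (X w))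
    (M : ModuleCat.{u} R) (hfin : Module.Finite R M) (a b : ℕ)
    (hM : ∀ i, 1 ≤ i → i ≤ a → EZ R M M i)
    (hR : ∀ i, 1 ≤ i → i ≤ b → EZ R M R i)
    (φ : ℕ → ℕ) (hφ : StrictMono φ) (h1 : ∀ s, 1 ≤ φ s)
    (ha : φ (2 * Fintype.card W + 1) + 1 ≤ φ 0 + a)
    (hb : φ (2 * Fintype.card W + 1) + 1 ≤ b)
    (hP : ∀ s, ∃ Y A B : ModuleCat.{u} R, IsSyzygy R M (φ s) Y ∧
      IsSumOf R X A ∧ IsSumOf R X B ∧ Nonempty (SES R B A Y)) :
    Module.Projective R M := by
  classical
  have hK : IsNoetherian K R := inferInstance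
  have hRn : IsNoetherianRing R := isNoetherian_of_tower K hK
  choose Y A B hY hA hB EA using hP
  have EA' := fun s => (EA s).some
  choose ra σa hea using hA
  choose rb σb heb using hB
  have hYfin : ∀ s, Module.Finite R (Y s) := fun s => (hY s).finite
  have hprev : ∀ s, ∃ (P Y' : ModuleCat.{u} R), IsSyzygy R M (φ s - 1) Y' ∧
      Module.Projective R P ∧ Module.Finite R P ∧ Nonempty (SES R (Y s) P Y') := by
    intro s
    have := hY s
    obtain ⟨k, hk⟩ : ∃ k, φ s = k + 1 := ⟨φ s - 1, by have := h1 s; omega⟩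
    rw [hk] at this
    have h2 := this.pred
    rw [hk]
    exact h2
  choose P Y' hY' hPproj hPfin EP using hprev
  have EP' := fun s => (EP s).some
  have hnext : ∀ s, ∃ (Q N : ModuleCat.{u} R), Module.Projective R Q ∧ Module.Finite R Q ∧
      Module.Finite R N ∧ Nonempty (SES R N Q (Y s)) := fun s => by
    have := hYfin s
    exact exists_presentation (Y s)
  choose Q N hQproj hQfin hNfin EQ using hnext
  have EQ' := fun s => (EQ s).some
  have hY'fin : ∀ s, Module.Finite R (Y' s) := fun s => (hY' s).finite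
  have hAfin : ∀ s, Module.Finite R (A s) := fun s =>
    Module.Finite.equiv (hea s).some.symm
  -- bounds
  have hle : ∀ s, s ≤ 2 * Fintype.card W + 1 → φ s ≤ φ (2 * Fintype.card W + 1) := fun s hs =>
    hφ.monotone hs
  have hge : ∀ s, φ 0 ≤ φ s := fun s => hφ.monotone (Nat.zero_le s)
  -- scalar structures
  let iX : ∀ w, Module K (X w) := fun w => kmod K R (X w)
  have tX : ∀ w, IsScalarTower K R (X w) := fun w => ktower K R (X w)
  let iY : ∀ s, Module K (Y s) := fun s => kmod K R (Y s)
  have tY : ∀ s, IsScalarTower K R (Y s) := fun s => ktower K R (Y s)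
  let iA : ∀ s, Module K (A s) := fun s => kmod K R (A s)
  have tA : ∀ s, IsScalarTower K R (A s) := fun s => ktower K R (A s)
  let iB : ∀ s, Module K (B s) := fun s => kmod K R (B s)
  have tB : ∀ s, IsScalarTower K R (B s) := fun s => ktower K R (B s)
  have hres := core (K := K) (R := R) (fun w => (X w : Type u)) (fun s => (Y s : Type u))
    (fun s => (A s : Type u)) (fun s => (B s : Type u)) (fun s => (Q s : Type u))
    (fun s => (N s : Type u)) (fun s => (P s : Type u)) (fun s => (Y' s : Type u))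
    EQ' EP' EA'
    (fun t w => ((Finset.univ.filter (fun l => σa t l = w)).card : ℚ) -
      ((Finset.univ.filter (fun l => σb t l = w)).card : ℚ))
    (by
      intro t Z _ _ _
      rw [hl_sum (K := K) (fun w => (X w : Type u)) (A t) (σa t) (hea t).some Z,
        hl_sum (K := K) (fun w => (X w : Type u)) (B t) (σb t) (heb t).some Z,
        ← Finset.sum_sub_distrib]
      exact Finset.sum_congr rfl (fun w _ => by ring))
    (by
      intro s t hst hs
      have hst' : φ t ≤ φ s := hφ.monotone hst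
      have k1 := hle s hs
      have k2 := hge t
      exact (EQ' s).extend ((hY s).ez_left 1 le_rfl
        ((hY t).ez_right hM hR (1 + φ s) (by omega) (by omega) (by omega))))
    (by
      intro s t hst hs
      have hst' : φ t < φ s := hφ hst
      have := h1 s
      have k1 := hle s hs
      have k2 := hge t
      exact (EP' s).extend ((hY' s).ez_left 1 le_rfl
        ((hY t).ez_right hM hR (1 + (φ s - 1)) (by omega) (by omega) (by omega))))
    (by
      intro s t hst hs h
      have hst' : φ t < φ (t + 1) := hφ (by omega)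
      have hst'' : φ (t + 1) < φ s := hφ (by omega)
      have k1 := hle s hs
      have k2 := hge t
      obtain ⟨k, hk⟩ : ∃ k, φ s - 1 = k + 1 := ⟨φ s - 2, by omega⟩
      have h2 := hY' s
      rw [hk] at h2
      obtain ⟨P₂, Y₂, hY₂, hp₂, hf₂, ⟨E₂⟩⟩ := h2.pred
      exact lift_of_ext (EA' t) E₂.f h (E₂.extend (hY₂.ez_left 1 le_rfl
        ((hY t).ez_right hM hR (1 + k) (by omega) (by omega) (by omega))) h))
  obtain ⟨s, hs, hproj⟩ := hres
  have k1 := hle s hs
  exact (hY s).projective hR (by omega) hproj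

include K in
/-- Igusa-Todorov algebras, family version, with an explicit bound. -/
theorem main_uniform {W : Type} [Fintype W] (X : W → ModuleCat.{u} R)
    (hX : ∀ w, Module.Finite R (X w)) (n : ℕ)
    (hIT : ∀ M : ModuleCat.{u} R, Module.Finite R M → ∃ Y A B : ModuleCat.{u} R,
      IsSyzygy R M n Y ∧ IsSumOf R X A ∧ IsSumOf R X B ∧ Nonempty (SES R B A Y))
    (M : ModuleCat.{u} R) (hfin : Module.Finite R M)
    (hM : ∀ i, 1 ≤ i → i ≤ 2 * Fintype.card W + 2 → EZ R M M i)
    (hR : ∀ i, 1 ≤ i → i ≤ n + 2 * Fintype.card W + 3 → EZ R M R i) :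
    Module.Projective R M := by
  have hK : IsNoetherian K R := inferInstance
  have hRn : IsNoetherianRing R := isNoetherian_of_tower K hK
  refine main_family K X hX M hfin _ _ hM hR (fun s => 1 + s + n)
    (strictMono_nat_of_lt_succ (fun s => by omega)) (fun s => by omega) ?_ ?_ ?_
  · omega
  · omega
  · intro s
    obtain ⟨L, hL⟩ := exists_syzygy M (1 + s)
    obtain ⟨Y, A, B, hY, h⟩ := hIT L hL.finite
    exact ⟨Y, A, B, hL.trans hY, h⟩

include K in
/-- Modules infinitely many of whose syzygies have presentations in `add V`. -/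
theorem module_version (M V : ModuleCat.{u} R) (hfin : Module.Finite R M)
    (hV : Module.Finite R V) (hAR : AR R M)
    (hinf : ∀ m : ℕ, ∃ n > m, ∃ Y, IsSyzygy R M n Y ∧ HasPres R V Y) :
    Module.Projective R M := by
  have hK' : IsArtinian K R := inferInstance
  have hRa : IsArtinianRing R := isArtinian_of_tower K hK'
  obtain ⟨W, hW, X, hX, hadd⟩ := exists_family V hV
  have hinf' : ∀ m : ℕ, ∃ n > m, 1 ≤ n ∧ ∃ Y, IsSyzygy R M n Y ∧ HasPres R V Y := by
    intro m
    obtain ⟨n, hn, h⟩ := hinf m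
    exact ⟨n, hn, by omega, h⟩
  obtain ⟨φ, hφ, hP⟩ := Nat.exists_strictMono_subsequence hinf'
  refine main_family K X hX M hfin (φ (2 * Fintype.card W + 1) + 1)
    (φ (2 * Fintype.card W + 1) + 1) (fun i hi _ => (hAR i hi).1) (fun i hi _ => (hAR i hi).2)
    φ hφ (fun s => (hP s).1) (by omega) le_rfl ?_
  intro s
  obtain ⟨Y, hY, A, B, i, p, hA, hB, hi, hex, hp⟩ := (hP s).2
  exact ⟨Y, A, B, hY, hadd A hA, hadd B hB, ⟨⟨i, p, hi, hp, hex⟩⟩⟩

include K in
theorem igusaTodorov_version (hIT : IgusaTodorov R) :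
    ∃ N : ℕ, ∀ M : ModuleCat.{u} R, Module.Finite R M → ARUpTo R N M →
      Module.Projective R M := by
  have hK' : IsArtinian K R := inferInstance
  have hRa : IsArtinianRing R := isArtinian_of_tower K hK'
  obtain ⟨n, V, hV, hVM⟩ := hIT
  obtain ⟨W, hW, X, hX, hadd⟩ := exists_family V hV
  refine ⟨n + 2 * Fintype.card W + 3, fun M hM hAR => ?_⟩
  refine main_uniform K X hX n ?_ M hM (fun i h1 h2 => (hAR i h1 (by omega)).1)
    (fun i h1 h2 => (hAR i h1 h2).2)
  intro L hL
  obtain ⟨Y, hY, A, B, i, p, hA, hB, hi, hex, hp⟩ := hVM L hL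
  exact ⟨Y, A, B, hY, hadd A hA, hadd B hB, ⟨⟨i, p, hi, hp, hex⟩⟩⟩

end

end Vale.Agent.Lib.H16.ITD
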