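import Mathlib
import Vale.Agent.Lib.H16.ITD.Main

/-!
Two ideals with `I * L * rad R = 0` and quotients of finite representation type.
-/

namespace Vale.Agent.Lib.H16.ITD

open CategoryTheory Abelian Vale.Agent.Lib.H16.IT

universe u v

section

/-- family version of finite representation type of `R / I` -/
lemma FinRepQuot.finTypeMod {R : Type u} [Ring R] [IsArtinianRing R] {I : Ideal R}
    (h : FinRepQuot R I) : FinTypeMod R I := by
  obtain ⟨V, hV, hL⟩ := h
  obtain ⟨W, hW, X, hX, hadd⟩ := exists_family V hV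
  let ε := Fintype.equivFin W
  refine ⟨Fintype.card W, fun a => X (ε.symm a), fun a => hX _, fun L hLf hLk => ?_⟩
  obtain ⟨r, σ, ⟨e⟩⟩ := hadd L (hL L hLf hLk)
  refine ⟨r, fun l => ε (σ l), ⟨e.trans (LinearEquiv.piCongrRight (fun l => ?_))⟩⟩
  have : X (σ l) = X (ε.symm (ε (σ l))) := by rw [Equiv.symm_apply_apply]
  exact (eqToIso this).toLinearEquiv

lemma ideals_pres {R : Type u} [Ring R] [IsArtinianRing R] (I L : Ideal R)
    (hIL : ∀ a ∈ I, ∀ b ∈ L, ∀ c ∈ Ring.jacobson R, a * b * c = 0)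
    (hI : FinTypeMod R I) (hL : FinTypeMod R L) :
    ∃ (W : Type) (_ : Fintype W) (X : W → ModuleCat.{u} R), (∀ w, Module.Finite R (X w)) ∧
      ∀ M : ModuleCat.{u} R, Module.Finite R M → ∃ Y A B : ModuleCat.{u} R,
      IsSyzygy R M 1 Y ∧ IsSumOf R X A ∧ IsSumOf R X B ∧ Nonempty (SES R B A Y) := by
  classical
  obtain ⟨w₁, X₁, hX₁, hX₁'⟩ := hI
  obtain ⟨w₂, X₂, hX₂, hX₂'⟩ := hL
  have hpres : ∀ a : Fin w₂, ∃ (P N : ModuleCat.{u} R), Module.Projective R P ∧
      Module.Finite R P ∧ Module.Finite R N ∧ Nonempty (SES R N P (X₂ a)) := fun a => by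
    have := hX₂ a
    exact exists_presentation (X₂ a)
  choose Q O hQproj hQfin hOfin EQ using hpres
  have EQ' := fun a => (EQ a).some
  let X : Fin w₁ ⊕ (Fin w₂ ⊕ Fin w₂) → ModuleCat.{u} R := Sum.elim X₁ (Sum.elim Q O)
  refine ⟨_, inferInstance, X, ?_, ?_⟩
  · rintro (a | a | a)
    · exact hX₁ a
    · exact hQfin a
    · exact hOfin a
  · intro M hM
    obtain ⟨P, π, hproj, hPfin, hsurj, hker⟩ := exists_cover M
    let Y : ModuleCat.{u} R := ModuleCat.of R (LinearMap.ker π)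
    have hY : IsSyzygy R M 1 Y := IsSyzygy.succ IsSyzygy.zero hproj hPfin
      (LinearMap.ker π).subtype π (Submodule.injective_subtype _) hsurj
      (LinearMap.exact_subtype_ker_map π)
    have hYfin : Module.Finite R Y := hY.finite
    let D : Submodule R Y := L • (⊤ : Submodule R Y)
    have hkill : ∀ a ∈ I, ∀ b ∈ L, ∀ y : Y, (a * b) • y = 0 := by
      intro a ha b hb y
      have h1 : ∀ z ∈ Ring.jacobson R • (⊤ : Submodule R P), (a * b) • z = 0 := by
        intro z hz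
        induction hz using Submodule.smul_induction_on' with
        | smul c hc p _ => rw [← mul_smul, hIL a ha b hb c hc, zero_smul]
        | add p _ q _ hp hq => rw [smul_add, hp, hq, add_zero]
      apply Subtype.ext
      exact h1 y.1 (hker y.2)
    have hD1 : ∀ a ∈ I, ∀ x : D, a • x = 0 := by
      intro a ha x
      apply Subtype.ext
      obtain ⟨x, hx⟩ := x
      change a • x = 0
      induction hx using Submodule.smul_induction_on' with
      | smul b hb y _ => rw [← mul_smul, hkill a ha b hb y]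
      | add p _ q _ hp hq => rw [smul_add, hp, hq, add_zero]
    have hD2 : ∀ b ∈ L, ∀ x : Y ⧸ D, b • x = 0 := by
      intro b hb x
      obtain ⟨x, rfl⟩ := Submodule.Quotient.mk_surjective _ x
      rw [← Submodule.Quotient.mk_smul, Submodule.Quotient.mk_eq_zero]
      exact Submodule.smul_mem_smul hb trivial
    obtain ⟨r₁, σ₁, ⟨e₁⟩⟩ := hX₁' (ModuleCat.of R D) (inferInstance : Module.Finite R D) hD1
    obtain ⟨r₂, σ₂, ⟨e₂⟩⟩ := hX₂' (ModuleCat.of R (Y ⧸ D))
      (inferInstance : Module.Finite R (Y ⧸ D)) hD2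
    have E₀ : SES R D Y (Y ⧸ D) := ⟨D.subtype, D.mkQ, Submodule.injective_subtype _,
      Submodule.mkQ_surjective _, LinearMap.exact_subtype_mkQ D⟩
    have E₁ := E₀.congr e₁.symm e₂
    have E₂ := SES.pi _ _ _ (fun l : Fin r₂ => EQ' (σ₂ l))
    have hQproj' : ∀ l : Fin r₂, Module.Projective R (Q (σ₂ l)) := fun l => hQproj _
    have hprojpi : Module.Projective R (∀ l : Fin r₂, Q (σ₂ l)) :=
      Module.Projective.of_equiv (DFinsupp.linearEquivFunOnFintype (R := R)
        (M := fun l : Fin r₂ => (Q (σ₂ l) : Type u)))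
    obtain ⟨E⟩ := E₁.pres E₂
    refine ⟨Y, ModuleCat.of R ((∀ l : Fin r₁, X₁ (σ₁ l)) × (∀ l : Fin r₂, Q (σ₂ l))),
      ModuleCat.of R (∀ l : Fin r₂, O (σ₂ l)), hY, ?_, ?_, ⟨E⟩⟩
    · refine isSumOf_of_fintype X _ (ι := Fin r₁ ⊕ Fin r₂)
        (Sum.elim (fun l => Sum.inl (σ₁ l)) (fun l => Sum.inr (Sum.inl (σ₂ l)))) ?_
      exact (LinearEquiv.sumPiEquivProdPi R (Fin r₁) (Fin r₂)
        (fun l => (X ((Sum.elim (fun l => Sum.inl (σ₁ l)) (fun l => Sum.inr (Sum.inl (σ₂ l)))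
          : Fin r₁ ⊕ Fin r₂ → Fin w₁ ⊕ (Fin w₂ ⊕ Fin w₂)) l) : Type u))).symm
    · exact isSumOf_of_fintype X _ (ι := Fin r₂) (fun l => Sum.inr (Sum.inr (σ₂ l)))
        (LinearEquiv.refl R _)

theorem ideals_version (K : Type v) [CommRing K] [IsArtinianRing K] {R : Type u} [Ring R]
    [Algebra K R] [Module.Finite K R] (I L : Ideal R)
    (hIL : ∀ a ∈ I, ∀ b ∈ L, ∀ c ∈ Ring.jacobson R, a * b * c = 0)
    (hI : FinRepQuot R I) (hL : FinRepQuot R L) :
    ∃ N : ℕ, ∀ M : ModuleCat.{u} R, Module.Finite R M → ARUpTo R N M →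
      Module.Projective R M := by
  have hK' : IsArtinian K R := inferInstance
  have hRa : IsArtinianRing R := isArtinian_of_tower K hK'
  obtain ⟨W, hW, X, hX, hIT⟩ := ideals_pres I L hIL hI.finTypeMod hL.finTypeMod
  exact ⟨1 + 2 * Fintype.card W + 3, fun M hM hAR => main_uniform K X hX 1 hIT M hM
    (fun i h1 h2 => (hAR i h1 (by omega)).1) (fun i h1 h2 => (hAR i h1 h2).2)⟩

end

end Vale.Agent.Lib.H16.ITD
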