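import Mathlib
import Vale.Agent.Lib.H16.ITD.Ideals

/-!
Radical cube zero, with an explicit bound in terms of the number of simple modules.
-/

namespace Vale.Agent.Lib.H16.ITD

open CategoryTheory Abelian Vale.Agent.Lib.H16.IT

universe u v

lemma exists_dep {W : Type} [Fintype W] (c : ℕ → (W → ℚ)) :
    ∃ t ≤ Fintype.card W, c t ∈ Submodule.span ℚ (c '' {r | r < t}) := by
  by_contra hno
  push Not at hno
  have hrank : ∀ k, k ≤ Fintype.card W + 1 →
      k ≤ Module.finrank ℚ (Submodule.span ℚ (c '' {r | r < k})) := by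
    intro k
    induction k with
    | zero => intro _; exact Nat.zero_le _
    | succ k ih =>
      intro hk
      have h1 := ih (by omega)
      have h2 : Submodule.span ℚ (c '' {r | r < k}) <
          Submodule.span ℚ (c '' {r | r < k + 1}) := by
        refine lt_of_le_of_ne (Submodule.span_mono (Set.image_mono (fun r hr => ?_))) ?_
        · have hr' : r < k := hr
          change r < k + 1
          omega
        · intro heq
          apply hno k (by omega)
          rw [heq]
          exact Submodule.subset_span ⟨k, by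
            change k < k + 1
            omega, rfl⟩
      have h3 := Submodule.finrank_lt_finrank_of_lt h2
      omega
  have h1 := hrank (Fintype.card W + 1) le_rfl
  have h2 := Submodule.finrank_le (Submodule.span ℚ (c '' {r | r < Fintype.card W + 1}))
  rw [Module.finrank_fintype_fun_eq_card] at h2
  omega

section factor

variable {K : Type v} [CommRing K] [IsArtinianRing K] {R : Type u} [Ring R] [Algebra K R]
  [Module.Finite K R] {A Y Z : Type u} [AddCommGroup A] [Module R A] [AddCommGroup Y] [Module R Y]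
  [AddCommGroup Z] [Module R Z] [Module K A] [IsScalarTower K R A] [Module K Y]
  [IsScalarTower K R Y]

omit [IsArtinianRing K] [Module.Finite K R] in
lemma hl_eq_of_factor (f : A →ₗ[R] Y) (hf : Function.Injective f)
    (h : ∀ g : Z →ₗ[R] Y, ∃ g' : Z →ₗ[R] A, f ∘ₗ g' = g) : hl K R Z Y = hl K R Z A := by
  refine (len_equiv (LinearEquiv.ofBijective (postC K (X := Z) f) ⟨?_, ?_⟩)).symm
  · intro g g' hgg
    ext x
    exact hf (congrArg (fun f => f x) hgg)
  · intro g
    exact h g

lemma factor_of_hl [Module.Finite R Z] [Module.Finite R Y] [Module.Finite R A]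
    (f : A →ₗ[R] Y) (hf : Function.Injective f)
    (hlen : hl K R Z Y ≤ hl K R Z A) :
    ∀ g : Z →ₗ[R] Y, ∃ g' : Z →ₗ[R] A, f ∘ₗ g' = g := by
  have : Module.Finite K (Z →ₗ[R] Y) := finite_hom K
  have : Module.Finite K (Z →ₗ[R] A) := finite_hom K
  have hinj : Function.Injective (postC K (X := Z) f) := by
    intro g g' hgg
    ext x
    exact hf (congrArg (fun f => f x) hgg)
  have h1 : len K (Z →ₗ[R] A) = len K (LinearMap.range (postC K (X := Z) f)) :=
    len_equiv (LinearEquiv.ofInjective _ hinj)
  have h2 : LinearMap.range (postC K (X := Z) f) = ⊤ := by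
    apply eq_top_of_len
    unfold hl at hlen
    omega
  intro g
  have : g ∈ LinearMap.range (postC K (X := Z) f) := by rw [h2]; trivial
  exact this

end factor

/-- modules killed by the radical are sums of simple modules -/
lemma isSumOf_of_killed {R : Type u} [Ring R] [IsArtinianRing R] {n : ℕ}
    (S : Fin n → ModuleCat.{u} R)
    (hall : ∀ T : ModuleCat.{u} R, IsSimpleModule R T → ∃ a, Nonempty (T ≃ₗ[R] S a))
    (L : ModuleCat.{u} R) (hL : Module.Finite R L)
    (hk : ∀ a ∈ Ring.jacobson R, ∀ x : L, a • x = 0) : IsSumOf R S L := by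
  have hss := semisimple_of_killed L hk
  obtain ⟨r, T, e, hT⟩ := IsSemisimpleModule.exists_linearEquiv_fin_dfinsupp R L
  choose σ hσ using fun i => hall (ModuleCat.of R (T i)) (hT i)
  exact ⟨r, σ, ⟨(e.trans (DFinsupp.linearEquivFunOnFintype (R := R))).trans
    (LinearEquiv.piCongrRight (fun i => (hσ i).some))⟩⟩

theorem cube (K : Type v) [CommRing K] [IsArtinianRing K] {R : Type u} [Ring R]
    [Algebra K R] [Module.Finite K R]
    (hJ : ∀ a ∈ Ring.jacobson R, ∀ b ∈ Ring.jacobson R, ∀ c ∈ Ring.jacobson R, a * b * c = 0)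
    (n : ℕ) (S : Fin n → ModuleCat.{u} R) (hS : ∀ a, Module.Finite R (S a))
    (hall : ∀ T : ModuleCat.{u} R, IsSimpleModule R T → ∃ a, Nonempty (T ≃ₗ[R] S a))
    (M : ModuleCat.{u} R) (hfin : Module.Finite R M)
    (hM : ∀ i, 1 ≤ i → i ≤ 2 * n + 1 → EZ R M M i)
    (hR : ∀ i, 1 ≤ i → i ≤ 2 * n + 2 → EZ R M R i) :
    Module.Projective R M := by
  classical
  have hK : IsNoetherian K R := inferInstance
  have hRn : IsNoetherianRing R := isNoetherian_of_tower K hK
  have hK' : IsArtinian K R := inferInstance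
  have hRa : IsArtinianRing R := isArtinian_of_tower K hK'
  -- the minimal resolution
  have hcov : ∀ N : {N : ModuleCat.{u} R // Module.Finite R N},
      ∃ (P : ModuleCat.{u} R) (π : P →ₗ[R] N.1), Module.Projective R P ∧ Module.Finite R P ∧
      Function.Surjective π ∧ LinearMap.ker π ≤ Ring.jacobson R • (⊤ : Submodule R P) := by
    intro N
    have := N.2
    exact exists_cover N.1
  choose P π hproj hPfin hsurj hker using hcov
  let next : {N : ModuleCat.{u} R // Module.Finite R N} →
      {N : ModuleCat.{u} R // Module.Finite R N} := fun N =>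
    ⟨ModuleCat.of R (LinearMap.ker (π N)), by
      have := hPfin N
      exact (inferInstance : Module.Finite R (LinearMap.ker (π N)))⟩
  let N : ℕ → {N : ModuleCat.{u} R // Module.Finite R N} := fun j =>
    Nat.rec ⟨M, hfin⟩ (fun _ N => next N) j
  have hsyz : ∀ j, IsSyzygy R M j (N j).1 := by
    intro j
    induction j with
    | zero => exact IsSyzygy.zero
    | succ j ih =>
      exact IsSyzygy.succ ih (hproj (N j)) (hPfin (N j)) (LinearMap.ker (π (N j))).subtype
        (π (N j)) (Submodule.injective_subtype _) (hsurj (N j))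
        (LinearMap.exact_subtype_ker_map (π (N j)))
  have E : ∀ j, ∃ E : SES R (N (j + 1)).1 (P (N j)) (N j).1,
      ∀ x, E.f x ∈ Ring.jacobson R • (⊤ : Submodule R (P (N j))) := fun j =>
    ⟨⟨(LinearMap.ker (π (N j))).subtype, π (N j), Submodule.injective_subtype _, hsurj (N j),
      LinearMap.exact_subtype_ker_map (π (N j))⟩, fun x => hker (N j) x.2⟩
  choose E hE using E
  clear_value N
  clear next
  -- radical and top of the syzygies
  have hdata : ∀ j, ∃ (A C : ModuleCat.{u} R) (F : SES R A (N (j + 1)).1 C),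
      IsSumOf R S A ∧ IsSumOf R S C ∧
      (∀ x ∈ Ring.jacobson R • (⊤ : Submodule R (N (j + 1)).1), ∃ a, F.f a = x) ∧
      (Function.Surjective F.f → Subsingleton (N (j + 1)).1) := by
    intro j
    have hf := (N (j + 1)).2
    let D : Submodule R (N (j + 1)).1 := Ring.jacobson R • (⊤ : Submodule R (N (j + 1)).1)
    have hkill : ∀ a ∈ Ring.jacobson R, ∀ b ∈ Ring.jacobson R, ∀ y : (N (j + 1)).1,
        (a * b) • y = 0 := by
      intro a ha b hb y
      have h1 : ∀ z ∈ Ring.jacobson R • (⊤ : Submodule R (P (N j))), (a * b) • z = 0 := by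
        intro z hz
        induction hz using Submodule.smul_induction_on' with
        | smul c hc p _ => rw [← mul_smul, hJ a ha b hb c hc, zero_smul]
        | add p _ q _ hp hq => rw [smul_add, hp, hq, add_zero]
      apply (E j).inj
      rw [map_smul, map_zero]
      exact h1 _ (hE j y)
    have hD1 : ∀ a ∈ Ring.jacobson R, ∀ x : D, a • x = 0 := by
      intro a ha x
      apply Subtype.ext
      obtain ⟨x, hx⟩ := x
      change a • x = 0
      induction hx using Submodule.smul_induction_on' with
      | smul b hb y _ => rw [← mul_smul, hkill a ha b hb y]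
      | add p _ q _ hp hq => rw [smul_add, hp, hq, add_zero]
    have hD2 : ∀ b ∈ Ring.jacobson R, ∀ x : (N (j + 1)).1 ⧸ D, b • x = 0 := by
      intro b hb x
      obtain ⟨x, rfl⟩ := Submodule.Quotient.mk_surjective _ x
      rw [← Submodule.Quotient.mk_smul, Submodule.Quotient.mk_eq_zero]
      exact Submodule.smul_mem_smul hb trivial
    refine ⟨ModuleCat.of R D, ModuleCat.of R ((N (j + 1)).1 ⧸ D),
      ⟨D.subtype, D.mkQ, Submodule.injective_subtype _,
      Submodule.mkQ_surjective _, LinearMap.exact_subtype_mkQ D⟩,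
      isSumOf_of_killed S hall _ (inferInstance : Module.Finite R D) hD1,
      isSumOf_of_killed S hall _ (inferInstance : Module.Finite R ((N (j + 1)).1 ⧸ D)) hD2,
      fun x hx => ⟨⟨x, hx⟩, rfl⟩, ?_⟩
    intro hs
    by_contra hns
    have hnt : Nontrivial (N (j + 1)).1 := not_subsingleton_iff_nontrivial.1 hns
    have hlt : D < ⊤ := Submodule.jacobson_smul_lt_top ⊤
    apply hlt.ne
    rw [eq_top_iff]
    intro x _
    obtain ⟨a, rfl⟩ := hs x
    exact a.2
  choose A C F hA hC hFr hFs using hdata
  choose ra σa hea using hA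
  choose rc σc hec using hC
  have hAfin : ∀ s, Module.Finite R (A s) := fun s =>
    Module.Finite.equiv (hea s).some.symm
  -- vanishing of `Ext^1(N_i, N_{j+1})`
  have hez : ∀ i j, j + 1 ≤ i → i ≤ 2 * n + 1 → EZ R (N i).1 (N (j + 1)).1 1 := by
    intro i j hij hi
    exact (hsyz i).ez_left 1 le_rfl ((hsyz (j + 1)).ez_right hM hR (1 + i)
      (by omega) (by omega) (by omega))
  -- maps into later syzygies land in the radical
  have hland : ∀ i j, j + 1 ≤ i → i ≤ 2 * n + 1 →
      ∀ g : (N (i + 1)).1 →ₗ[R] (N (j + 1)).1, ∃ g' : (N (i + 1)).1 →ₗ[R] A j,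
      (F j).f ∘ₗ g' = g := by
    intro i j hij hi g
    obtain ⟨h, hh⟩ := (E i).extend (hez i j hij hi) g
    have hmem : ∀ z ∈ Ring.jacobson R • (⊤ : Submodule R (P (N i))),
        h z ∈ Ring.jacobson R • (⊤ : Submodule R (N (j + 1)).1) := by
      intro z hz
      induction hz using Submodule.smul_induction_on' with
      | smul c hc p _ =>
        rw [map_smul]
        exact Submodule.smul_mem_smul hc trivial
      | add p _ q _ hp hq =>
        rw [map_add]
        exact Submodule.add_mem _ hp hq
    have hx : ∀ x, ∃ a, (F j).f a = g x := by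
      intro x
      have h1 : g x = h ((E i).f x) := (congrArg (fun f => f x) hh).symm
      rw [h1]
      exact hFr j _ (hmem _ (hE i x))
    choose a ha using hx
    refine ⟨{ toFun := a, map_add' := ?_, map_smul' := ?_ }, ?_⟩
    · intro x y
      apply (F j).inj
      rw [ha, map_add, map_add, ha, ha]
    · intro r x
      apply (F j).inj
      rw [ha, map_smul, RingHom.id_apply, map_smul, ha]
    · ext x
      exact ha x
  -- scalar structures
  let iS : ∀ w, Module K (S w) := fun w => kmod K R (S w)
  have tS : ∀ w, IsScalarTower K R (S w) := fun w => ktower K R (S w)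
  let iN : ∀ s, Module K (N s).1 := fun s => kmod K R (N s).1
  have tN : ∀ s, IsScalarTower K R (N s).1 := fun s => ktower K R (N s).1
  let iA : ∀ s, Module K (A s) := fun s => kmod K R (A s)
  have tA : ∀ s, IsScalarTower K R (A s) := fun s => ktower K R (A s)
  let iC : ∀ s, Module K (C s) := fun s => kmod K R (C s)
  have tC : ∀ s, IsScalarTower K R (C s) := fun s => ktower K R (C s)
  have hNfin : ∀ s, Module.Finite R (N s).1 := fun s => (N s).2
  -- the vectors and the functionals
  let c : ℕ → (Fin n ⊕ Fin n → ℚ) := fun j => Sum.elim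
    (fun w => ((Finset.univ.filter (fun l => σc j l = w)).card : ℚ))
    (fun w => ((Finset.univ.filter (fun l => σa j l = w)).card : ℚ))
  let Θ : ℕ → ((Fin n ⊕ Fin n → ℚ) →ₗ[ℚ] ℚ) := fun i =>
    ∑ w, ((hl K R (P (N (i + 1))) (S w) : ℚ)) • LinearMap.proj (Sum.inl w) +
    ∑ w, ((hl K R (P (N (i + 1))) (S w) : ℚ) - hl K R (N (i + 1)).1 (S w)
      - hl K R (N (i + 2)).1 (S w)) • LinearMap.proj (Sum.inr w)
  have hA' : ∀ (j : ℕ) (Z : Type u) [AddCommGroup Z] [Module R Z] [Module.Finite R Z],
      (hl K R Z (A j) : ℚ) = ∑ w, c j (Sum.inr w) * (hl K R Z (S w) : ℚ) := by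
    intro j Z _ _ _
    exact hl_sum (K := K) (fun w => (S w : Type u)) (A j) (σa j) (hea j).some Z
  have hC' : ∀ (j : ℕ) (Z : Type u) [AddCommGroup Z] [Module R Z] [Module.Finite R Z],
      (hl K R Z (C j) : ℚ) = ∑ w, c j (Sum.inl w) * (hl K R Z (S w) : ℚ) := by
    intro j Z _ _ _
    exact hl_sum (K := K) (fun w => (S w : Type u)) (C j) (σc j) (hec j).some Z
  have hPf : ∀ i, Module.Finite R (P (N i)) := fun i => hPfin (N i)
  have hPp : ∀ i, Module.Projective R (P (N i)) := fun i => hproj (N i)
  have hΘ : ∀ i j, Θ i (c j) = (hl K R (P (N (i + 1))) (C j) : ℚ) +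
      ((hl K R (P (N (i + 1))) (A j) : ℚ) - hl K R (N (i + 1)).1 (A j)
      - hl K R (N (i + 2)).1 (A j)) := by
    intro i j
    rw [hC' j (P (N (i + 1))), hA' j (P (N (i + 1))), hA' j (N (i + 1)).1, hA' j (N (i + 2)).1,
      ← Finset.sum_sub_distrib, ← Finset.sum_sub_distrib]
    simp only [Θ, LinearMap.add_apply, LinearMap.sum_apply, LinearMap.smul_apply,
      LinearMap.proj_apply, smul_eq_mul]
    congr 1
    · exact Finset.sum_congr rfl (fun w _ => by ring)
    · exact Finset.sum_congr rfl (fun w _ => by ring)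
  have eP : ∀ i j, hl K R (P (N (i + 1))) (N (j + 1)).1 =
      hl K R (P (N (i + 1))) (A j) + hl K R (P (N (i + 1))) (C j) := fun i j =>
    (F j).hl_cov (fun h => Module.projective_lifting_property (F j).g h (F j).surj)
  have eE : ∀ i j, j ≤ i → i ≤ 2 * n → hl K R (P (N (i + 1))) (N (j + 1)).1 =
      hl K R (N (i + 1)).1 (N (j + 1)).1 + hl K R (N (i + 2)).1 (N (j + 1)).1 :=
    fun i j hij hi => (E (i + 1)).hl_contra
      ((E (i + 1)).extend (hez (i + 1) j (by omega) (by omega)))
  have eL : ∀ i j, j + 1 ≤ i → i ≤ 2 * n + 1 → hl K R (N (i + 1)).1 (N (j + 1)).1 =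
      hl K R (N (i + 1)).1 (A j) := fun i j hij hi =>
    hl_eq_of_factor (F j).f (F j).inj (hland i j hij hi)
  have hzero : ∀ i j, j < i → i ≤ 2 * n → Θ i (c j) = 0 := by
    intro i j hij hi
    have k1 := eP i j
    have k2 := eE i j hij.le hi
    have k3 := eL i j (by omega) (by omega)
    have k4 := eL (i + 1) j (by omega) (by omega)
    rw [hΘ]
    have k5 : hl K R (P (N (i + 1))) (A j) + hl K R (P (N (i + 1))) (C j) =
        hl K R (N (i + 1)).1 (A j) + hl K R (N (i + 2)).1 (A j) := by
      rw [← k1, k2, k3, k4]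
    have k6 : (hl K R (P (N (i + 1))) (A j) : ℚ) + hl K R (P (N (i + 1))) (C j) =
        hl K R (N (i + 1)).1 (A j) + hl K R (N (i + 2)).1 (A j) := by exact_mod_cast k5
    linarith
  obtain ⟨t, ht, hspan⟩ := exists_dep c
  rw [Fintype.card_sum, Fintype.card_fin] at ht
  have k0 : Θ t (c t) = 0 := by
    have : Submodule.span ℚ (c '' {r | r < t}) ≤ LinearMap.ker (Θ t) := by
      rw [Submodule.span_le]
      rintro _ ⟨r, hr, rfl⟩
      exact hzero t r hr (by omega)
    exact this hspan
  have hlen : hl K R (N (t + 1)).1 (N (t + 1)).1 ≤ hl K R (N (t + 1)).1 (A t) := by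
    have k1 := eP t t
    have k2 := eE t t le_rfl (by omega)
    have k4 := eL (t + 1) t (by omega) (by omega)
    rw [hΘ] at k0
    have k5 : hl K R (P (N (t + 1))) (A t) + hl K R (P (N (t + 1))) (C t) =
        hl K R (N (t + 1)).1 (N (t + 1)).1 + hl K R (N (t + 2)).1 (A t) := by
      rw [← k1, k2, k4]
    have k6 : (hl K R (P (N (t + 1))) (A t) : ℚ) + hl K R (P (N (t + 1))) (C t) =
        hl K R (N (t + 1)).1 (N (t + 1)).1 + hl K R (N (t + 2)).1 (A t) := by exact_mod_cast k5
    have k7 : (hl K R (N (t + 1)).1 (N (t + 1)).1 : ℚ) = hl K R (N (t + 1)).1 (A t) := by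
      linarith
    exact_mod_cast k7.le
  obtain ⟨g, hg⟩ := factor_of_hl (F t).f (F t).inj hlen LinearMap.id
  have hsub : Subsingleton (N (t + 1)).1 := hFs t (fun x => ⟨g x, congrArg (fun f => f x) hg⟩)
  have hprojN : Module.Projective R (N (t + 1)).1 := inferInstance
  exact (hsyz (t + 1)).projective hR (by omega) hprojN

end Vale.Agent.Lib.H16.ITD
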